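import Mathlib
import Vale.Agent.P068.Main

open Set Function
open scoped Matroid

namespace Vale.Agent.Results.P068.Counterexample

/-- The family `M` of matroids on `E` has a packing/covering partition `E = P ∪ C`.
`(M✶ ↾ C)✶` is the contraction of `M` onto `C`. -/
def HasPackingCovering {α ι : Type} (E : Set α) (M : ι → Matroid α) : Prop :=
  ∃ (P C : Set α) (S I : ι → Set α), Disjoint P C ∧ P ∪ C = E ∧
    (∀ i, S i ⊆ P) ∧ (∀ i, I i ⊆ C) ∧ (∀ i j, i ≠ j → Disjoint (S i) (S j)) ∧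
    (∀ i, ((M i) ↾ P).closure (S i) = P) ∧ (∀ i, (((M i)✶ ↾ C)✶).Indep (I i)) ∧
    (⋃ i, I i) = C

/-- The pair `(M, N)` of matroids on `E` satisfies intersection. -/
def SatisfiesIntersection {α : Type} (E : Set α) (M N : Matroid α) : Prop :=
  ∃ J JM JN : Set α, M.Indep J ∧ N.Indep J ∧ Disjoint JM JN ∧ JM ∪ JN = J ∧
    M.closure JM ∪ N.closure JN = E

theorem result :
    (∃ (α : Type) (E : Set α) (M : Bool → Matroid α), E.Countable ∧ (∀ i, (M i).E = E) ∧
      ¬ HasPackingCovering E M) ∧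
    (∃ (α : Type) (E : Set α) (M N : Matroid α), E.Countable ∧ M.E = E ∧ N.E = E ∧
      ¬ SatisfiesIntersection E M N) := by
  obtain ⟨M, hM, hno⟩ := Vale.Agent.P068.exists_not_PC2
  refine ⟨⟨_, univ, M, countable_univ, hM, ?_⟩,
    ⟨_, univ, M false, (M true)✶, countable_univ, hM _, hM _, ?_⟩⟩
  · rintro ⟨P, C, S, I, h1, h2, h3, -, h5, h6, h7, h8⟩
    exact hno (Vale.Agent.P068.PC2_of_pc hM h1 h2 h3 h5 h6 h7 h8)
  · rintro ⟨J, A, B, h1, h2, h3, rfl, h5⟩
    exact hno (Vale.Agent.P068.PC2_of_inter hM h3 h1 h2 h5)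

end Vale.Agent.Results.P068.Counterexample
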